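import Vale.Agent.Lib.P329.Class3

/-!
Every language recognized by a finite group of nilpotency class at most three has generalized star
height at most one.
-/

namespace Vale.Agent.Results.P329.NilpotentClass3

open Vale.Agent.Lib.P329

theorem prod_eq {α G : Type} [Group G] (φ : FreeMonoid α →* G) (w : List α) :
    φ (FreeMonoid.ofList w) = (w.map (fun a => φ (FreeMonoid.of a))).prod := by
  induction w with
  | nil => simp
  | cons a w ih =>
    rw [List.map_cons, List.prod_cons, ← ih, FreeMonoid.ofList_cons, map_mul]

/-- If `G` is a finite group of nilpotency class at most three (that is, its lower central series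
`γ₁ = G`, `γ₂ = [G, G]`, `γ₃ = [γ₂, G]`, `γ₄ = [γ₃, G]` reaches the trivial group at `γ₄`; in
the indexing of the library this series starts at index zero), then every language over a finite
alphabet recognized by `G` is denoted by a generalized regular expression of star height at most
one. -/
theorem result {α G : Type} [Finite α] [Group G] [Finite G]
    (hG : (⊤ : Subgroup G).lowerCentralSeries 3 = ⊥)
    (φ : FreeMonoid α →* G) (T : Set G) :
    ∃ e : GRE α, e.height ≤ 1 ∧ e.lang = {w : List α | φ (FreeMonoid.ofList w) ∈ T} := by
  have h := gsh_of_class3 hG (fun a => φ (FreeMonoid.of a)) T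
  obtain ⟨e, he, hl⟩ := h
  refine ⟨e, he, hl.trans ?_⟩
  ext w
  show (w.map _).prod ∈ T ↔ φ (FreeMonoid.ofList w) ∈ T
  rw [prod_eq]

end Vale.Agent.Results.P329.NilpotentClass3
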