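import Vale.Agent.Lib.P329.Class5

/-!
Every language recognized by a finite group of nilpotency class at most five, whose fourth term of
the lower central series has odd squarefree exponent and whose fifth term has squarefree exponent
prime to six, has generalized star height at most one.
-/

namespace Vale.Agent.Results.P329.NilpotentClass5

open Vale.Agent.Lib.P329

theorem prod_eq {α G : Type} [Group G] (φ : FreeMonoid α →* G) (w : List α) :
    φ (FreeMonoid.ofList w) = (w.map (fun a => φ (FreeMonoid.of a))).prod := by
  induction w with
  | nil => simp
  | cons a w ih =>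
    rw [List.map_cons, List.prod_cons, ← ih, FreeMonoid.ofList_cons, map_mul]

/-- Let `G` be a finite group with lower central series `γ₁ = G`, `γ₂ = [G, G]`, and
`γ_{i+1} = [γ_i, G]`; in the indexing of the library this series starts at index zero, so `γ₆` is
index five, `γ₅` is index four and `γ₄` is index three.  If `γ₆` is trivial (class at most five),
`m` is an odd squarefree number with `x ^ m = 1` for all `x` in `γ₄`, and `m'` is a squarefree
number prime to six with `x ^ m' = 1` for all `x` in `γ₅`, then every language over a finite
alphabet recognized by `G` is denoted by a generalized regular expression of star height at most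
one.  Taking `m' = 1` gives all groups of class at most four with `γ₄` of odd squarefree exponent,
and `m = m' = 1` gives all groups of class at most three. -/
theorem result {α G : Type} [Finite α] [Group G] [Finite G]
    (hG : (⊤ : Subgroup G).lowerCentralSeries 5 = ⊥)
    (m : ℕ) (hm : Squarefree m) (hodd : Odd m)
    (hexp : ∀ x ∈ (⊤ : Subgroup G).lowerCentralSeries 3, x ^ m = 1)
    (m' : ℕ) (hm' : Squarefree m') (hcop : Nat.Coprime m' 6)
    (hexp' : ∀ x ∈ (⊤ : Subgroup G).lowerCentralSeries 4, x ^ m' = 1)
    (φ : FreeMonoid α →* G) (T : Set G) :
    ∃ e : GRE α, e.height ≤ 1 ∧ e.lang = {w : List α | φ (FreeMonoid.ofList w) ∈ T} := by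
  have h := gsh_of_class5 hG m hm hodd hexp m' hm' hcop hexp' (fun a => φ (FreeMonoid.of a)) T
  obtain ⟨e, he, hl⟩ := h
  refine ⟨e, he, hl.trans ?_⟩
  ext w
  show (w.map _).prod ∈ T ↔ φ (FreeMonoid.ofList w) ∈ T
  rw [prod_eq]

end Vale.Agent.Results.P329.NilpotentClass5
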