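import Vale.Agent.Results.P329.AbelianByElementary
import Vale.Agent.Results.P329.NilpotentClass3
import Vale.Agent.Results.P329.NilpotentClass5

namespace Vale.Agent.Results.P329.A00_master

open Vale.Agent.Lib.P329

/-- Let `G` be a finite group in one of the following classes: (1) `G` has an abelian normal
subgroup `V` with `G / V` elementary abelian for a prime `p` (all commutators and all `p`-th powers
lie in `V`); (2) `G` has nilpotency class at most three; (3) `G` has nilpotency class at most five
(in the indexing of the library the lower central series starts at index zero), with `γ₄` of odd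
squarefree exponent `m` and `γ₅` of squarefree exponent `m'` prime to six. Then every language over
a finite alphabet recognized by `G` is denoted by a generalized regular expression of star height
at most one. -/
theorem result {α G : Type} [Finite α] [Group G] [Finite G]
    (hG : (∃ (p : ℕ) (V : Subgroup G), p.Prime ∧ V.Normal ∧ (∀ x ∈ V, ∀ y ∈ V, x * y = y * x) ∧
        (∀ x y : G, x * y * x⁻¹ * y⁻¹ ∈ V) ∧ ∀ x : G, x ^ p ∈ V) ∨
      (⊤ : Subgroup G).lowerCentralSeries 3 = ⊥ ∨
      ∃ m m' : ℕ, (⊤ : Subgroup G).lowerCentralSeries 5 = ⊥ ∧ Squarefree m ∧ Odd m ∧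
        (∀ x ∈ (⊤ : Subgroup G).lowerCentralSeries 3, x ^ m = 1) ∧
        Squarefree m' ∧ Nat.Coprime m' 6 ∧
        ∀ x ∈ (⊤ : Subgroup G).lowerCentralSeries 4, x ^ m' = 1)
    (φ : FreeMonoid α →* G) (T : Set G) :
    ∃ e : GRE α, e.height ≤ 1 ∧ e.lang = {w : List α | φ (FreeMonoid.ofList w) ∈ T} := by
  rcases hG with ⟨p, V, hp, hN, hV, hc, hpow⟩ | h3 | ⟨m, m', h5, hm, hodd, hexp, hm', hcop, hexp'⟩
  · exact Vale.Agent.Results.P329.AbelianByElementary.result p hp V hV hc hpow φ T
  · exact Vale.Agent.Results.P329.NilpotentClass3.result h3 φ T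
  · exact Vale.Agent.Results.P329.NilpotentClass5.result h5 m hm hodd hexp m' hm' hcop hexp' φ T

end Vale.Agent.Results.P329.A00_master
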