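import Vale.Agent.Lib.P329.Magnus

/-!
Every language recognized by a finite group with an abelian normal subgroup whose quotient is an
elementary abelian `p`-group has generalized star height at most one.
-/

namespace Vale.Agent.Results.P329.AbelianByElementary

open Vale.Agent.Lib.P329

theorem prod_eq {α G : Type} [Group G] (φ : FreeMonoid α →* G) (w : List α) :
    φ (FreeMonoid.ofList w) = (w.map (fun a => φ (FreeMonoid.of a))).prod := by
  induction w with
  | nil => simp
  | cons a w ih =>
    rw [List.map_cons, List.prod_cons, ← ih, FreeMonoid.ofList_cons, map_mul]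

/-- Let `p` be a prime and let `G` be a finite group with a normal subgroup `V` that is abelian
(`hV`) such that `G / V` is abelian (`hc`, all commutators lie in `V`) and of exponent dividing `p`
(`hpow`, all `p`-th powers lie in `V`).  Then every language over a finite alphabet recognized by
`G` is denoted by a generalized regular expression of star height at most one. -/
theorem result {α G : Type} [Finite α] [Group G] [Finite G] (p : ℕ) (hp : p.Prime)
    (V : Subgroup G) [V.Normal] (hV : ∀ x ∈ V, ∀ y ∈ V, x * y = y * x)
    (hc : ∀ x y : G, x * y * x⁻¹ * y⁻¹ ∈ V) (hpow : ∀ x : G, x ^ p ∈ V)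
    (φ : FreeMonoid α →* G) (T : Set G) :
    ∃ e : GRE α, e.height ≤ 1 ∧ e.lang = {w : List α | φ (FreeMonoid.ofList w) ∈ T} := by
  obtain ⟨e, he, hl⟩ := gsh_of_abelian_by_elem p hp V hV hc hpow (fun a => φ (FreeMonoid.of a)) T
  refine ⟨e, he, hl.trans ?_⟩
  ext w
  show (w.map _).prod ∈ T ↔ φ (FreeMonoid.ofList w) ∈ T
  rw [prod_eq]

end Vale.Agent.Results.P329.AbelianByElementary
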