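import Vale.Agent.Lib.P329.Class4

/-!
Every language recognized by a finite group of nilpotency class at most four, whose fourth term of
the lower central series has odd squarefree exponent, has generalized star height at most one.
-/

namespace Vale.Agent.Results.P329.NilpotentClass4

open Vale.Agent.Lib.P329

theorem prod_eq {α G : Type} [Group G] (φ : FreeMonoid α →* G) (w : List α) :
    φ (FreeMonoid.ofList w) = (w.map (fun a => φ (FreeMonoid.of a))).prod := by
  induction w with
  | nil => simp
  | cons a w ih =>
    rw [List.map_cons, List.prod_cons, ← ih, FreeMonoid.ofList_cons, map_mul]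

/-- Let `G` be a finite group with lower central series `γ₁ = G`, `γ₂ = [G, G]`, `γ₃ = [γ₂, G]`,
`γ₄ = [γ₃, G]`, `γ₅ = [γ₄, G]`; in the indexing of the library this series starts at index zero,
so `γ₅` is index four and `γ₄` is index three.  If `γ₅` is trivial (class at most four) and `m` is
an odd squarefree number with `x ^ m = 1` for all `x` in `γ₄`, then every language over a finite
alphabet recognized by `G` is denoted by a generalized regular expression of star height at most
one.  Taking `m = 1` gives all groups of class at most three. -/
theorem result {α G : Type} [Finite α] [Group G] [Finite G]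
    (hG : (⊤ : Subgroup G).lowerCentralSeries 4 = ⊥) (m : ℕ) (hm : Squarefree m) (hodd : Odd m)
    (hexp : ∀ x ∈ (⊤ : Subgroup G).lowerCentralSeries 3, x ^ m = 1)
    (φ : FreeMonoid α →* G) (T : Set G) :
    ∃ e : GRE α, e.height ≤ 1 ∧ e.lang = {w : List α | φ (FreeMonoid.ofList w) ∈ T} := by
  have h := gsh_of_class4 hG m hm hodd hexp (fun a => φ (FreeMonoid.of a)) T
  obtain ⟨e, he, hl⟩ := h
  refine ⟨e, he, hl.trans ?_⟩
  ext w
  show (w.map _).prod ∈ T ↔ φ (FreeMonoid.ofList w) ∈ T
  rw [prod_eq]

end Vale.Agent.Results.P329.NilpotentClass4
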